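import Vale.Agent.P223.R2.H84.SpecDeg
import Vale.Agent.P223.R2.H968.BoxMap
import Vale.Agent.P223.X.DensX
import Vale.Agent.P223.X.BoxU
import Mathlib.Analysis.Calculus.BumpFunction.FiniteDimension

/-! Row D3: the degree is constant in a box. -/

namespace Vale.Agent.P223.R2.H395.LD

open scoped ContDiff Topology ENNReal
open MeasureTheory Vale.Agent.P223.H Vale.Agent.P223.X Vale.Agent.P223.R2.H84 Filter Function

section vol
variable {n : ℕ} {M I : Type} [TopologicalSpace M] {c : M → J.Ch n M}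

theorem dens_eq (B : Box c I) (g : M → J.Mtx n) (i : I) (y : E n) : dens (B.G g i) y =
    (∏ k, dth (B.r i) (y k)) * √(g (B.a i) (B.x i y)).det := by
  have h4 : 0 < ∏ k, dth (B.r i) (y k) := Finset.prod_pos fun k _ => BoxU.dth_pos (B.pos i) _
  show √(B.G g i y).det = _
  rw [VolU.det_G, Real.sqrt_mul (sq_nonneg _), Real.sqrt_sq h4.le]

theorem dens_pos {g : M → J.Mtx n} (hg : J.Met c g) (B : Box c I) (i : I) (y : E n) :
    0 < dens (B.G g i) y := by
  rw [dens_eq]
  refine mul_pos (Finset.prod_pos fun k _ => BoxU.dth_pos (B.pos i) _) (Real.sqrt_pos.2 ?_)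
  have := (hg (B.a i) (B.β i y) (BoxB.β_mem B i y)).2.1.det_pos
  rwa [BoxB.c_β] at this

theorem cont_dens {g : M → J.Mtx n} (hg : J.Met c g) (B : Box c I) (i : I) :
    Continuous (dens (B.G g i)) := by
  have h : dens (B.G g i) = fun y =>
      (∏ k, dth (B.r i) (y k)) * √(g (B.a i) (B.x i y)).det := funext fun y => dens_eq B g i y
  rw [h]
  refine Continuous.mul (continuous_finsetProd _ fun k _ =>
    (BoxB.contDiff_dth _).continuous.comp (continuous_apply k)) (Real.continuous_sqrt.comp ?_)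
  refine continuous_iff_continuousAt.2 fun y => ?_
  have h1 : ∀ k l, ContinuousAt (fun y => g (B.a i) (B.x i y) k l) y := by
    intro k l
    have h2 := (hg (B.a i) (B.β i y) (BoxB.β_mem B i y)).1 k l
    rw [BoxB.c_β] at h2
    exact ContinuousAt.comp (f := B.x i) (g := fun x => g (B.a i) x k l)
      h2.continuousAt (BoxB.contDiff_x B i).continuous.continuousAt
  have h3 : ContinuousAt (fun y => g (B.a i) (B.x i y)) y :=
    continuousAt_pi.2 fun k => continuousAt_pi.2 fun l => h1 k l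
  exact ContinuousAt.comp (f := fun y => g (B.a i) (B.x i y))
    (g := fun A : Matrix (Fin n) (Fin n) ℝ => A.det)
    (continuous_id.matrix_det.continuousAt (x := g (B.a i) (B.x i y))) h3

variable [MeasurableSpace M] [BorelSpace M]

omit [BorelSpace M] in
theorem vol_box (B : Box c I) {g : M → J.Mtx n} {μ : Measure M} (hv : J.Vol c g μ) (i : I)
    {S : Set (E n)} (hS : MeasurableSet S) :
    μ (B.β i '' S) = ∫⁻ y in S, ENNReal.ofReal (dens (B.G g i) y) := by
  have h1 : B.β i '' S = (c (B.a i)).symm '' (B.x i '' S) := by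
    rw [Set.image_image]
    rfl
  have hemb := BoxU.th_isOpenEmbedding (a := c (B.a i) (B.a i)) (B.pos i)
  have hsub : B.x i '' S ⊆ (c (B.a i)).target := by
    rintro _ ⟨y, -, rfl⟩
    exact B.sub i y
  have hmeas : MeasurableSet (B.x i '' S) := hemb.measurableEmbedding.measurableSet_image.2 hS
  rw [h1, hv (B.a i) _ hsub hmeas]
  have h2 := lintegral_image_eq_lintegral_abs_det_fderiv_mul (volume : Measure (E n)) hS
    (f := B.x i) (f' := fun y => fderiv ℝ (B.x i) y)
    (fun y _ => ((BoxU.contDiff_th _ _).differentiable (by simp) y).hasFDerivAt.hasFDerivWithinAt)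
    hemb.injective.injOn (fun x => ENNReal.ofReal √(g (B.a i) x).det)
  rw [h2]
  refine lintegral_congr fun y => ?_
  have h3 : (fderiv ℝ (B.x i) y).det = ∏ k, dth (B.r i) (y k) := VolU.det_fderiv_th _ _ y
  have h4 : 0 < ∏ k, dth (B.r i) (y k) := Finset.prod_pos fun k _ => BoxU.dth_pos (B.pos i) _
  rw [h3, abs_of_pos h4, ← ENNReal.ofReal_mul h4.le, dens_eq]

theorem comap_box (B : Box c I) {g : M → J.Mtx n} {μ : Measure M} (hv : J.Vol c g μ) (i : I) :
    μ.comap (B.β i) = volume.withDensity fun y => ENNReal.ofReal (dens (B.G g i) y) := by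
  ext S hS
  rw [(BoxU.emb_β B i).measurableEmbedding.comap_apply, withDensity_apply _ hS]
  exact vol_box B hv i hS

theorem integral_box (B : Box c I) {g : M → J.Mtx n} (hg : J.Met c g) {μ : Measure M}
    (hv : J.Vol c g μ) (i : I) (F : M → ℝ) (hF : ∀ p, p ∉ Set.range (B.β i) → F p = 0) :
    ∫ p, F p ∂μ = ∫ y, F (B.β i y) * dens (B.G g i) y := by
  have hme := (BoxU.emb_β B i).measurableEmbedding
  rw [← setIntegral_eq_integral_of_forall_compl_eq_zero hF, ← hme.map_comap, hme.integral_map,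
    comap_box B hv i, integral_withDensity_eq_integral_toReal_smul
      (cont_dens hg B i).measurable.ennreal_ofReal (Eventually.of_forall fun _ =>
        ENNReal.ofReal_lt_top)]
  refine integral_congr_ae (Eventually.of_forall fun y => ?_)
  show (ENNReal.ofReal (dens (B.G g i) y)).toReal • F (B.β i y) = _
  rw [ENNReal.toReal_ofReal (dens_pos hg B i y).le, smul_eq_mul, mul_comm]

omit [BorelSpace M] in
theorem finite_vol [Fintype I] (B : Box c I) {g : M → J.Mtx n} (hg : J.Met c g) {μ : Measure M}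
    (hv : J.Vol c g μ) : IsFiniteMeasure μ := by
  refine ⟨?_⟩
  have h1 : (Set.univ : Set M) ⊆ ⋃ i, B.β i '' Metric.closedBall (0 : E n) 1 := by
    intro p _
    obtain ⟨i, y, hy, h⟩ := B.cover p
    refine Set.mem_iUnion.2 ⟨i, y, ?_, h⟩
    rw [mem_closedBall_zero_iff]
    exact (pi_norm_le_iff_of_nonneg zero_le_one).2 fun k => (hy k).le
  refine (measure_mono h1).trans_lt ((measure_iUnion_le _).trans_lt ?_)
  rw [tsum_fintype]
  refine ENNReal.sum_lt_top.2 fun i _ => ?_
  rw [vol_box B hv i measurableSet_closedBall]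
  have h2 : IntegrableOn (dens (B.G g i)) (Metric.closedBall (0 : E n) 1) :=
    (cont_dens hg B i).continuousOn.integrableOn_compact (isCompact_closedBall _ _)
  have h3 := h2.2
  rw [HasFiniteIntegral] at h3
  refine lt_of_le_of_lt (lintegral_mono fun y => ?_) h3
  exact Real.ofReal_le_enorm _

end vol

section ext
variable {n : ℕ} {M I : Type} [TopologicalSpace M] {c : M → J.Ch n M}

theorem ext_apply (B : Box c I) (j : I) (v : E n → ℝ) (w : E n) :
    extend (B.β j) v 0 (B.β j w) = v w := (BoxB.β_injective B j).extend_apply _ _ _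

theorem ext_zero (B : Box c I) (j : I) {v : E n → ℝ} {z : M} (hz : z ∉ B.β j '' tsupport v) :
    extend (B.β j) v 0 z = 0 := by
  by_cases h : z ∈ Set.range (B.β j)
  · obtain ⟨w, rfl⟩ := h
    rw [ext_apply]
    by_contra hne
    exact hz ⟨w, subset_tsupport _ hne, rfl⟩
  · rw [extend_apply' _ _ _ (fun ⟨w, hw⟩ => h ⟨w, hw⟩)]
    rfl

theorem ext_ev [T2Space M] (B : Box c I) (j : I) {v : E n → ℝ} (hc : HasCompactSupport v) {z : M}
    (hz : z ∉ B.β j '' tsupport v) : extend (B.β j) v 0 =ᶠ[𝓝 z] fun _ => 0 := by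
  have hcl : IsClosed (B.β j '' tsupport v) :=
    (hc.isCompact.image (BoxB.continuous_β B j)).isClosed
  filter_upwards [hcl.isOpen_compl.mem_nhds hz] with x hx
  exact ext_zero B j hx

theorem cont_ext [T2Space M] (B : Box c I) (j : I) {v : E n → ℝ} (hv : Continuous v)
    (hc : HasCompactSupport v) : Continuous (extend (B.β j) v 0) := by
  refine continuous_iff_continuousAt.2 fun x => ?_
  by_cases h : x ∈ B.β j '' tsupport v
  · obtain ⟨w, -, rfl⟩ := h
    rw [← (BoxU.emb_β B j).continuousAt_iff]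
    have h1 : extend (B.β j) v 0 ∘ B.β j = v := funext fun w => ext_apply B j v w
    rw [h1]
    exact hv.continuousAt
  · exact continuousAt_const.congr (ext_ev B j hc h).symm

end ext

section det
variable {n : ℕ}

theorem exists_zeta {η : E n → ℝ} (hc : HasCompactSupport η) : ∃ ζ : E n → ℝ, ContDiff ℝ ∞ ζ ∧
    HasCompactSupport ζ ∧ ∀ w ∈ tsupport η, ζ =ᶠ[𝓝 w] fun _ => 1 := by
  obtain ⟨R, hR⟩ := hc.isCompact.isBounded.subset_closedBall (0 : E n)
  let b : ContDiffBump (0 : E n) := ⟨max R 0 + 1, max R 0 + 2, by positivity, by linarith⟩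
  refine ⟨b, b.contDiff, b.hasCompactSupport, fun w hw => ?_⟩
  have h1 : w ∈ Metric.ball (0 : E n) (max R 0 + 1) := by
    have := hR hw
    rw [mem_closedBall_zero_iff] at this
    rw [mem_ball_zero_iff]
    linarith [le_max_left R 0]
  filter_upwards [Metric.isOpen_ball.mem_nhds h1] with z hz
  exact b.one_of_mem_closedBall (Metric.ball_subset_closedBall hz)

/-- the functions with Jacobian determinant `∂η/∂x_k` -/
noncomputable def vv (η ζ : E n → ℝ) (k l : Fin n) : E n → ℝ :=
  if l = k then η else fun w => ζ w * w l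

theorem vv_smooth {η ζ : E n → ℝ} (hη : ContDiff ℝ ∞ η) (hζ : ContDiff ℝ ∞ ζ) (k l : Fin n) :
    ContDiff ℝ ∞ (vv η ζ k l) := by
  unfold vv
  split_ifs
  · exact hη
  · exact hζ.mul (contDiff_apply ℝ ℝ l)

theorem vv_supp {η ζ : E n → ℝ} (hη : HasCompactSupport η) (hζ : HasCompactSupport ζ)
    (k l : Fin n) : HasCompactSupport (vv η ζ k l) := by
  unfold vv
  split_ifs
  · exact hη
  · exact hζ.mul_right

theorem jdet_row_zero {f : Fin n → E n → ℝ} {w : E n} (k : Fin n)
    (h : f k =ᶠ[𝓝 w] fun _ => 0) : jdet f w = 0 := by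
  unfold jdet
  refine Matrix.det_eq_zero_of_row_eq_zero k fun a => ?_
  rw [Matrix.of_apply]
  unfold H.pd
  rw [h.fderiv_eq]
  simp

theorem jdet_vv {η ζ : E n → ℝ} (h1 : ∀ w ∈ tsupport η, ζ =ᶠ[𝓝 w] fun _ => 1) (k : Fin n)
    (w : E n) : jdet (vv η ζ k) w = H.pd k η w := by
  classical
  by_cases hw : w ∈ tsupport η
  · unfold jdet
    have e : (Matrix.of fun i j => H.pd j (vv η ζ k i) w) =
        (1 : Matrix (Fin n) (Fin n) ℝ).updateRow k (fun b => H.pd b η w) := by
      ext i j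
      rw [Matrix.of_apply, Matrix.updateRow_apply]
      unfold vv
      split_ifs with h
      · rfl
      · have e2 : (fun w : E n => ζ w * w i) =ᶠ[𝓝 w] fun w => w i := by
          filter_upwards [h1 w hw] with z hz
          rw [hz, one_mul]
        unfold H.pd
        rw [e2.fderiv_eq]
        have e3 : fderiv ℝ (fun w : E n => w i) w = ContinuousLinearMap.proj i :=
          (hasFDerivAt_apply i w).fderiv
        rw [e3, ContinuousLinearMap.proj_apply, Matrix.one_apply, Pi.single_apply]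
    rw [e, ← Matrix.cramer_transpose_apply, Matrix.transpose_one, Matrix.cramer_one]
    rfl
  · have h2 : η =ᶠ[𝓝 w] fun _ => 0 := notMem_tsupport_iff_eventuallyEq.1 hw
    have h3 : vv η ζ k k =ᶠ[𝓝 w] fun _ => 0 := by
      unfold vv; rw [if_pos rfl]; exact h2
    rw [jdet_row_zero k h3]
    unfold H.pd
    rw [h2.fderiv_eq]
    simp

end det

section map
variable {n : ℕ} {X Y I I' : Type} [TopologicalSpace X] [TopologicalSpace Y] {c : X → J.Ch n X}
  {c' : Y → J.Ch n Y} {B : Box c I} {B' : Box c' I'} {f : C(Y, X)} {g : Y → J.Mtx n}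
  {g0 : X → J.Mtx n} {q : Y → ℝ}

theorem chartmap (hf : ∀ a b x, x ∈ (c' a).target → f ((c' a).symm x) ∈ (c b).source →
    ContDiffAt ℝ ∞ (fun z => c b (f ((c' a).symm z))) x ∧
    0 ≤ (fderiv ℝ (fun z => c b (f ((c' a).symm z))) x).det)
    (hq : RelJ c c' f g g0 q) (j : I) (i : I') (y : E n)
    (h : f (B'.β i y) ∈ Set.range (B.β j)) : ∃ Φ : E n → E n, ContDiffAt ℝ ∞ Φ y ∧
      (∀ᶠ y' in 𝓝 y, B.β j (Φ y') = f (B'.β i y')) ∧
      dens (B.G g0 j) (Φ y) * (fderiv ℝ Φ y).det = q (B'.β i y) * dens (B'.G g i) y := by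
  set fc : E n → E n := fun z => c (B.a j) (f ((c' (B'.a i)).symm z)) with hfc
  set Φ : E n → E n := fun y' => BoxB.xi B j (fc (B'.x i y')) with hΦ
  have hev : ∀ᶠ y' in 𝓝 y, f (B'.β i y') ∈ Set.range (B.β j) :=
    (f.continuous.comp (BoxB.continuous_β B' i)).continuousAt.eventually_mem
      ((BoxB.isOpen_range_β B j).mem_nhds h)
  have hbeta : ∀ y', f (B'.β i y') ∈ Set.range (B.β j) → B.β j (Φ y') = f (B'.β i y') ∧
      fc (B'.x i y') = B.x j (Φ y') := by
    rintro y' ⟨w, hw⟩
    have h1 : fc (B'.x i y') = B.x j w := by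
      show c (B.a j) (f (B'.β i y')) = _
      rw [← hw, BoxB.c_β]
    have h2 : Φ y' = w := by
      show BoxB.xi B j (fc (B'.x i y')) = w
      rw [h1, BoxB.xi_x]
    rw [h2]
    exact ⟨hw, h1⟩
  have hsrc : f ((c' (B'.a i)).symm (B'.x i y)) ∈ (c (B.a j)).source := by
    have h1 : f ((c' (B'.a i)).symm (B'.x i y)) = B.β j (Φ y) := (hbeta y h).1.symm
    rw [h1]; exact BoxB.β_mem B j _
  have hfs := hf _ _ _ (BoxB.x_mem B' i y) hsrc
  have hx' : ContDiff ℝ ∞ (B'.x i) := BoxB.contDiff_x B' i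
  have hx : ContDiff ℝ ∞ (B.x j) := BoxB.contDiff_x B j
  have hxi : ContDiffAt ℝ ∞ (BoxB.xi B j) (fc (B'.x i y)) := by
    rw [(hbeta y h).2]; exact BoxB.contDiffAt_xi B j _
  have hcomp : ContDiffAt ℝ ∞ (fun y' => fc (B'.x i y')) y := hfs.1.comp y hx'.contDiffAt
  have hΦs : ContDiffAt ℝ ∞ Φ y := ContDiffAt.comp y hxi hcomp
  refine ⟨Φ, hΦs, ?_, ?_⟩
  · filter_upwards [hev] with y' h' using (hbeta y' h').1
  · have hq1 := hq.2.2 (B'.a i) (B.a j) (B'.x i y) (BoxB.x_mem B' i y) hsrc
    have e0 : c (B.a j) (f ((c' (B'.a i)).symm (B'.x i y))) = B.x j (Φ y) := (hbeta y h).2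
    rw [e0] at hq1
    have f1 : HasFDerivAt (B'.x i) (fderiv ℝ (B'.x i) y) y :=
      (hx'.differentiable (by simp) y).hasFDerivAt
    have f2 : HasFDerivAt fc (fderiv ℝ fc (B'.x i y)) (B'.x i y) :=
      (hfs.1.differentiableAt (by simp)).hasFDerivAt
    have f3 : HasFDerivAt (B.x j) (fderiv ℝ (B.x j) (Φ y)) (Φ y) :=
      (hx.differentiable (by simp) _).hasFDerivAt
    have f4 : HasFDerivAt Φ (fderiv ℝ Φ y) y :=
      (hΦs.differentiableAt (by simp)).hasFDerivAt
    have f5 := f2.comp y f1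
    have f6 := f3.comp y f4
    have e1 : (fc ∘ B'.x i) =ᶠ[𝓝 y] (B.x j ∘ Φ) := by
      filter_upwards [hev] with y' h using (hbeta y' h).2
    have hL := (f6.congr_of_eventuallyEq e1).unique f5
    have h7 := H968.boxdet B B' j i y (Φ y) (fderiv ℝ fc (B'.x i y)) (fderiv ℝ Φ y) g g0 _
      hL.symm hq1
    have h8 : 0 ≤ (fderiv ℝ Φ y).det := by
      have d1 : (fderiv ℝ (B.x j) (Φ y)).det = ∏ k, dth (B.r j) (Φ y k) :=
        VolU.det_fderiv_th _ _ _
      have d2 : (fderiv ℝ (B'.x i) y).det = ∏ k, dth (B'.r i) (y k) := VolU.det_fderiv_th _ _ y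
      have p1 : 0 < ∏ k, dth (B.r j) (Φ y k) :=
        Finset.prod_pos fun k _ => BoxU.dth_pos (B.pos j) _
      have p2 : 0 < ∏ k, dth (B'.r i) (y k) := Finset.prod_pos fun k _ => BoxU.dth_pos (B'.pos i) _
      have e3 : ((fderiv ℝ fc (B'.x i y)).comp (fderiv ℝ (B'.x i) y)).det =
          (fderiv ℝ fc (B'.x i y)).det * (fderiv ℝ (B'.x i) y).det := LinearMap.det_comp _ _
      have e4 : ((fderiv ℝ (B.x j) (Φ y)).comp (fderiv ℝ Φ y)).det =
          (fderiv ℝ (B.x j) (Φ y)).det * (fderiv ℝ Φ y).det := LinearMap.det_comp _ _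
      rw [← hL, e4, d1, d2] at e3
      have h9 : 0 ≤ (∏ k, dth (B.r j) (Φ y k)) * (fderiv ℝ Φ y).det := by
        rw [e3]; exact mul_nonneg hfs.2 p2.le
      exact nonneg_of_mul_nonneg_right h9 p1
    rwa [abs_of_nonneg h8] at h7

theorem smooth_ext [T2Space X] (hf : ∀ a b x, x ∈ (c' a).target → f ((c' a).symm x) ∈ (c b).source →
    ContDiffAt ℝ ∞ (fun z => c b (f ((c' a).symm z))) x ∧
    0 ≤ (fderiv ℝ (fun z => c b (f ((c' a).symm z))) x).det)
    (hq : RelJ c c' f g g0 q) (j : I) (i : I') {v : E n → ℝ} (hv : ContDiff ℝ ∞ v)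
    (hc : HasCompactSupport v) : ContDiff ℝ ∞ fun y => extend (B.β j) v 0 (f (B'.β i y)) := by
  refine contDiff_iff_contDiffAt.2 fun y => ?_
  have hcont : ContinuousAt (fun y => f (B'.β i y)) y :=
    (f.continuous.comp (BoxB.continuous_β B' i)).continuousAt
  by_cases h : f (B'.β i y) ∈ B.β j '' tsupport v
  · obtain ⟨Φ, h1, h2, -⟩ := chartmap (B := B) (B' := B') hf hq j i y (Set.image_subset_range _ _ h)
    have h3 : (fun y => extend (B.β j) v 0 (f (B'.β i y))) =ᶠ[𝓝 y] fun y' => v (Φ y') := by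
      filter_upwards [h2] with y' hy'
      rw [← hy', ext_apply]
    exact ContDiffAt.congr_of_eventuallyEq (hv.contDiffAt.comp y h1) h3
  · have h3 : (fun y => extend (B.β j) v 0 (f (B'.β i y))) =ᶠ[𝓝 y] fun _ => 0 :=
      hcont.eventually (ext_ev B j hc h)
    exact contDiffAt_const.congr_of_eventuallyEq h3

/-- the pointwise identity -/
theorem ident [T2Space X] (hg0 : J.Met c g0)
    (hf : ∀ a b x, x ∈ (c' a).target → f ((c' a).symm x) ∈ (c b).source →
    ContDiffAt ℝ ∞ (fun z => c b (f ((c' a).symm z))) x ∧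
    0 ≤ (fderiv ℝ (fun z => c b (f ((c' a).symm z))) x).det)
    (hq : RelJ c c' f g g0 q) (j : I) (i : I') {η ζ : E n → ℝ} (hη : ContDiff ℝ ∞ η)
    (hηc : HasCompactSupport η) (hζ : ContDiff ℝ ∞ ζ)
    (h1 : ∀ w ∈ tsupport η, ζ =ᶠ[𝓝 w] fun _ => 1) (k : Fin n) (y : E n) :
    q (B'.β i y) * extend (B.β j) (fun w => (dens (B.G g0 j) w)⁻¹ * H.pd k η w) 0
      (f (B'.β i y)) * dens (B'.G g i) y =
      jdet (fun l y' => extend (B.β j) (vv η ζ k l) 0 (f (B'.β i y'))) y := by
  have hcont : ContinuousAt (fun y => f (B'.β i y)) y :=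
    (f.continuous.comp (BoxB.continuous_β B' i)).continuousAt
  by_cases h : f (B'.β i y) ∈ B.β j '' tsupport η
  · obtain ⟨Φ, h2, h3, h4⟩ := chartmap (B := B) (B' := B') hf hq j i y (Set.image_subset_range _ _ h)
    have h5 : ∀ l, (fun y' => extend (B.β j) (vv η ζ k l) 0 (f (B'.β i y'))) =ᶠ[𝓝 y]
        fun y' => vv η ζ k l (Φ y') := by
      intro l
      filter_upwards [h3] with y' hy'
      rw [← hy', ext_apply]
    rw [DensX.jdet_congr h5, DensX.jdet_comp (fun l => vv η ζ k l) Φ y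
      (fun l => (vv_smooth hη hζ k l).differentiable (by simp) _)
      (h2.differentiableAt (by simp)), jdet_vv h1, ← h3.self_of_nhds, ext_apply]
    have hd := (dens_pos hg0 B j (Φ y)).ne'
    calc q (B'.β i y) * ((dens (B.G g0 j) (Φ y))⁻¹ * H.pd k η (Φ y)) * dens (B'.G g i) y
        = (dens (B.G g0 j) (Φ y))⁻¹ * H.pd k η (Φ y) *
          (q (B'.β i y) * dens (B'.G g i) y) := by ring
      _ = (fderiv ℝ Φ y).det * H.pd k η (Φ y) := by
          rw [← h4]; field_simp
  · have h5 : (fun y' => extend (B.β j) (vv η ζ k k) 0 (f (B'.β i y'))) =ᶠ[𝓝 y] fun _ => 0 := by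
      have : vv η ζ k k = η := by unfold vv; rw [if_pos rfl]
      rw [this]
      exact hcont.eventually (ext_ev B j hηc h)
    rw [jdet_row_zero k h5]
    have h6 : extend (B.β j) (fun w => (dens (B.G g0 j) w)⁻¹ * H.pd k η w) 0
        (f (B'.β i y)) = 0 := by
      refine ext_zero B j fun hmem => h ?_
      refine Set.image_mono ?_ hmem
      refine (tsupport_mul_subset_right).trans ?_
      exact tsupport_fderiv_apply_subset ℝ (f := η) (Pi.single k 1 : E n)
    rw [h6, mul_zero, zero_mul]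

end map

/-- integrals over `comap` -/
theorem integral_comap {n : ℕ} {X I : Type} [TopologicalSpace X] [MeasurableSpace X]
    [BorelSpace X] {c : X → J.Ch n X} (B : Box c I) (j : I) (ν : Measure X) (H : E n → ℝ) :
    ∫ w, H w ∂(ν.comap (B.β j)) = ∫ x, extend (B.β j) H 0 x ∂ν := by
  have hme := (BoxU.emb_β B j).measurableEmbedding
  have h0 : ∀ p, p ∉ Set.range (B.β j) → extend (B.β j) H 0 p = 0 := by
    intro p hp
    rw [extend_apply' _ _ _ (fun ⟨w, hw⟩ => hp ⟨w, hw⟩)]
    rfl
  rw [← setIntegral_eq_integral_of_forall_compl_eq_zero h0, ← hme.map_comap, hme.integral_map]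
  exact integral_congr_ae (Eventually.of_forall fun w => (ext_apply B j H w).symm)

theorem locDeg (st : SpecStokesY) (tr : SpecTr) : SpecLocDeg := by
  classical
  intro n X Y I _ _ _ _ _ _ _ _ _ _ c c' B f g g0 μ μ0 q hn hc hc' hg0 hg hv0 hv hf hq j
  obtain ⟨I', _, ⟨B'⟩⟩ := BoxU.main n Y c' hc'
  obtain ⟨χ, hχ1, hχ2, hχ3, hχ4, hst⟩ := st n Y I' c' B' hc' hn
  have : IsFiniteMeasure μ := finite_vol B' hg hv
  have hintY : ∀ F : Y → ℝ, Continuous F → Integrable F μ := fun F hF =>
    hF.integrable_of_hasCompactSupport (HasCompactSupport.of_compactSpace F)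
  have h1 : IsFiniteMeasure (μ.withDensity fun p => ENNReal.ofReal (q p)) :=
    isFiniteMeasure_withDensity_ofReal (hintY q hq.1).2
  set ν := Measure.map f (μ.withDensity fun p => ENNReal.ofReal (q p)) with hν
  have h2 : IsFiniteMeasure ν := Measure.isFiniteMeasure_map _ _
  have hme := (BoxU.emb_β B j).measurableEmbedding
  have h3 : IsFiniteMeasure (ν.comap (B.β j)) := ⟨by
    rw [hme.comap_apply]
    exact measure_lt_top _ _⟩
  have hcd := cont_dens hg0 B j
  have hpd := dens_pos hg0 B j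
  have hcinv : Continuous fun w => (dens (B.G g0 j) w)⁻¹ := hcd.inv₀ fun w => (hpd w).ne'
  set m1 := (ν.comap (B.β j)).withDensity fun w => ENNReal.ofReal (dens (B.G g0 j) w)⁻¹ with hm1
  have hloc : IsLocallyFiniteMeasure m1 := IsLocallyFiniteMeasure.withDensity_ofReal hcinv
  have hfc : IsFiniteMeasureOnCompacts m1 := inferInstance
  obtain ⟨cj, hcj⟩ := tr n m1 hfc (by
    intro k η hη hηc
    obtain ⟨ζ, hζ, hζc, h1ζ⟩ := exists_zeta hηc
    set HH : E n → ℝ := fun w => (dens (B.G g0 j) w)⁻¹ * H.pd k η w with hH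
    have hcpd : Continuous (H.pd k η) := (hη.continuous_fderiv (by simp)).clm_apply
      continuous_const
    have hHc : Continuous HH := hcinv.mul hcpd
    have hHs : HasCompactSupport HH := by
      refine HasCompactSupport.mul_left ?_
      exact hηc.fderiv_apply ℝ (Pi.single k 1 : E n)
    have e1 : ∫ x, H.pd k η x ∂m1 = ∫ w, HH w ∂(ν.comap (B.β j)) := by
      rw [hm1, integral_withDensity_eq_integral_toReal_smul
        hcinv.measurable.ennreal_ofReal (Eventually.of_forall fun _ => ENNReal.ofReal_lt_top)]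
      refine integral_congr_ae (Eventually.of_forall fun w => ?_)
      show (ENNReal.ofReal (dens (B.G g0 j) w)⁻¹).toReal • H.pd k η w = _
      rw [ENNReal.toReal_ofReal (inv_nonneg.2 (hpd w).le), smul_eq_mul]
    have hHx : Continuous (extend (B.β j) HH 0) := cont_ext B j hHc hHs
    rw [e1, integral_comap, hν, integral_map f.continuous.aemeasurable hHx.aestronglyMeasurable,
      integral_withDensity_eq_integral_toReal_smul hq.1.measurable.ennreal_ofReal
        (Eventually.of_forall fun _ => ENNReal.ofReal_lt_top)]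
    have e2 : ∀ p, (ENNReal.ofReal (q p)).toReal • extend (B.β j) HH 0 (f p) =
        ∑ i, extend (B'.β i) (χ i) 0 p * (q p * extend (B.β j) HH 0 (f p)) := by
      intro p
      rw [← Finset.sum_mul, hχ4, one_mul, ENNReal.toReal_ofReal (hq.2.1 p), smul_eq_mul]
    simp only [e2]
    rw [integral_finsetSum]
    · have e3 : ∀ i, ∫ p, extend (B'.β i) (χ i) 0 p * (q p * extend (B.β j) HH 0 (f p)) ∂μ =
          ∫ y, χ i y * jdet (fun l y' => extend (B.β j) (vv η ζ k l) 0 (f (B'.β i y'))) y := by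
        intro i
        rw [integral_box B' hg hv i]
        · refine integral_congr_ae (Eventually.of_forall fun y => ?_)
          show extend (B'.β i) (χ i) 0 (B'.β i y) *
            (q (B'.β i y) * extend (B.β j) HH 0 (f (B'.β i y))) * dens (B'.G g i) y = _
          have e5 := ident (B := B) (B' := B') hg0 hf hq j i hη hηc hζ h1ζ k y
          beta_reduce
          rw [ext_apply, ← e5]
          ring
        · intro p hp
          rw [extend_apply' _ _ _ (fun ⟨w, hw⟩ => hp ⟨w, hw⟩)]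
          show (0 : ℝ) * _ = 0
          rw [zero_mul]
      rw [Finset.sum_congr rfl fun i _ => e3 i]
      exact hst (fun l p => extend (B.β j) (vv η ζ k l) 0 (f p)) fun l i =>
        (smooth_ext (B := B) (B' := B') hf hq j i (vv_smooth hη hζ k l)
          (vv_supp hηc hζc k l)).of_le (by simp)
    · intro i _
      exact hintY _ ((cont_ext B' i (hχ1 i).continuous (hχ3 i)).mul
        (hq.1.mul (hHx.comp f.continuous))))
  refine ⟨cj, ?_⟩
  have e4 : ν.comap (B.β j) = m1.withDensity fun w => ENNReal.ofReal (dens (B.G g0 j) w) := by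
    rw [hm1, ← withDensity_mul _ hcinv.measurable.ennreal_ofReal hcd.measurable.ennreal_ofReal]
    have : ((fun w => ENNReal.ofReal (dens (B.G g0 j) w)⁻¹) *
        fun w => ENNReal.ofReal (dens (B.G g0 j) w)) = 1 := by
      funext w
      show ENNReal.ofReal (dens (B.G g0 j) w)⁻¹ * ENNReal.ofReal (dens (B.G g0 j) w) = 1
      rw [← ENNReal.ofReal_mul (inv_nonneg.2 (hpd w).le), inv_mul_cancel₀ (hpd w).ne',
        ENNReal.ofReal_one]
    rw [this, withDensity_one]
  rw [e4, hcj, comap_box B hv0 j]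
  ext S hS
  rw [withDensity_apply _ hS, Measure.smul_apply, withDensity_apply _ hS, Measure.restrict_smul,
    lintegral_smul_measure]

end Vale.Agent.P223.R2.H395.LD
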