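import Vale.Agent.P223.X.Basic

/-! Pull-back of functions and metrics under equivariant smooth maps of coverings. -/

namespace Vale.Agent.P223.R2.H395

open scoped ContDiff Topology Matrix
open MeasureTheory Vale.Agent.P223.H Vale.Agent.P223.X

section loc
variable {n : ℕ}

/-- comparison of the inverse metrics -/
theorem inv_le {A g g' : Matrix (Fin n) (Fin n) ℝ} (hg : g.PosDef) (hg' : g'.PosDef)
    (h : (g - Aᵀ * g' * A).PosSemidef) (η : Fin n → ℝ) :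
    (Aᵀ *ᵥ η) ⬝ᵥ (g⁻¹ *ᵥ (Aᵀ *ᵥ η)) ≤ η ⬝ᵥ (g'⁻¹ *ᵥ η) := by
  set w := g⁻¹ *ᵥ (Aᵀ *ᵥ η) with hw
  have hgd : IsUnit g.det := hg.det_pos.ne'.isUnit
  have hgd' : IsUnit g'.det := hg'.det_pos.ne'.isUnit
  have e1 : g *ᵥ w = Aᵀ *ᵥ η := by
    rw [hw, Matrix.mulVec_mulVec, Matrix.mul_nonsing_inv _ hgd, Matrix.one_mulVec]
  have e2 : η ⬝ᵥ (A *ᵥ w) = (Aᵀ *ᵥ η) ⬝ᵥ w := by
    rw [Matrix.mulVec_transpose, Matrix.dotProduct_mulVec]
  have e3 : (A *ᵥ w) ⬝ᵥ (g' *ᵥ (A *ᵥ w)) = w ⬝ᵥ ((Aᵀ * g' * A) *ᵥ w) := by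
    rw [← Matrix.mulVec_mulVec, ← Matrix.mulVec_mulVec, Matrix.dotProduct_mulVec w,
      Matrix.vecMul_transpose]
  have e4 : w ⬝ᵥ ((Aᵀ * g' * A) *ᵥ w) ≤ w ⬝ᵥ (g *ᵥ w) := by
    have := h.dotProduct_mulVec_nonneg w
    rw [Matrix.sub_mulVec, dotProduct_sub] at this
    simpa using this
  have e5 : w ⬝ᵥ (g *ᵥ w) = (Aᵀ *ᵥ η) ⬝ᵥ w := by rw [e1, dotProduct_comm]
  have e6 : 0 ≤ (g'⁻¹ *ᵥ η - A *ᵥ w) ⬝ᵥ (g' *ᵥ (g'⁻¹ *ᵥ η - A *ᵥ w)) := by
    have := hg'.posSemidef.dotProduct_mulVec_nonneg (g'⁻¹ *ᵥ η - A *ᵥ w)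
    simpa using this
  have e7 : g' *ᵥ (g'⁻¹ *ᵥ η) = η := by
    rw [Matrix.mulVec_mulVec, Matrix.mul_nonsing_inv _ hgd', Matrix.one_mulVec]
  have e8 : (g'⁻¹ *ᵥ η) ⬝ᵥ (g' *ᵥ (A *ᵥ w)) = η ⬝ᵥ (A *ᵥ w) := by
    have hT : g'ᵀ = g' := by
      have := hg'.isHermitian.eq
      rwa [Matrix.conjTranspose_eq_transpose_of_trivial] at this
    rw [Matrix.dotProduct_mulVec, ← Matrix.mulVec_transpose, hT, e7]
  rw [Matrix.mulVec_sub, dotProduct_sub, sub_dotProduct, sub_dotProduct, e7, e8,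
    dotProduct_comm (A *ᵥ w) η, dotProduct_comm (g'⁻¹ *ᵥ η) η] at e6
  have e9 : (Aᵀ *ᵥ η) ⬝ᵥ w = η ⬝ᵥ (A *ᵥ w) := e2.symm
  rw [e9] at e5 ⊢
  rw [e5] at e4
  rw [← e3] at e4
  linarith

theorem gradSq_comp_le {G G' : E n → Matrix (Fin n) (Fin n) ℝ} {φ : E n → E n} {x : E n}
    (hφ : ContDiffAt ℝ ∞ φ x) (hg : (G x).PosDef) (hg' : (G' (φ x)).PosDef)
    (hc : (G x - (jac φ x)ᵀ * G' (φ x) * jac φ x).PosSemidef) {f : E n → ℝ}
    (hf : DifferentiableAt ℝ f (φ x)) :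
    gradSq G (fun y => f (φ y)) x ≤ gradSq G' f (φ x) := by
  have e : (fun i => H.pd i (fun y => f (φ y)) x) = (jac φ x)ᵀ *ᵥ fun i => H.pd i f (φ x) := by
    ext j
    rw [Bridge.pd_eq, P223.pd_comp hφ hf]
    simp only [Matrix.mulVec, dotProduct, Matrix.transpose_apply]
    exact Finset.sum_congr rfl fun i _ => mul_comm _ _
  rw [gradSq, gradSq, Common.gradIp_eq, Common.gradIp_eq, e]
  exact inv_le hg hg' hc _

/-- the invariance of bilinear forms -/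
theorem bil_eq {φ : E n → E n} {x : E n} (hφ : ContDiffAt ℝ ∞ φ x)
    {g g' : Matrix (Fin n) (Fin n) ℝ} (h : g = (jac φ x)ᵀ * g' * jac φ x) (v w : E n) :
    ∑ a, ∑ b, fderiv ℝ φ x v a * fderiv ℝ φ x w b * g' a b = ∑ a, ∑ b, v a * w b * g a b := by
  have e1 : ∀ (m : Matrix (Fin n) (Fin n) ℝ) (v w : E n),
      ∑ a, ∑ b, v a * w b * m a b = v ⬝ᵥ (m *ᵥ w) := by
    intro m v w
    simp only [dotProduct, Matrix.mulVec, Finset.mul_sum]
    exact Finset.sum_congr rfl fun a _ => Finset.sum_congr rfl fun b _ => by ring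
  have e2 : ∀ v, fderiv ℝ φ x v = jac φ x *ᵥ v := by
    intro v
    ext a
    rw [Bas2.fderiv_eq_mulVec hφ]
    rfl
  rw [e1, e1, e2, e2, h, ← Matrix.mulVec_mulVec, ← Matrix.mulVec_mulVec,
    Matrix.dotProduct_mulVec v, Matrix.vecMul_transpose]

end loc

section
variable {n : ℕ} {M X Γ I M' X' I' : Type} [TopologicalSpace M] [TopologicalSpace X] [Group Γ]
    [MulAction Γ X] [TopologicalSpace M'] [TopologicalSpace X'] [MulAction Γ X']

/-- equivariant smooth maps of coverings -/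
structure EMap (C' : Cov n M' X' Γ I') (C : Cov n M X Γ I) where
  F : X' → X
  cont : Continuous F
  equi : ∀ (γ : Γ) x, F (γ • x) = γ • F x
  smooth : ∀ i j (γ : Γ), ContDiffOn ℝ ∞ (fun y => C.co j (γ • F (C'.ψ i y)))
    {y | γ • F (C'.ψ i y) ∈ Set.range (C.ψ j)}
  proper : ∀ K : Set X, IsCompact K → IsCompact (F ⁻¹' K)

variable {C' : Cov n M' X' Γ I'} {C : Cov n M X Γ I} (e : EMap C' C)

/-- the map in charts -/
noncomputable def EMap.rho (i : I') (j : I) (γ : Γ) (y : E n) : E n := C.co j (γ • e.F (C'.ψ i y))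

/-- its domain -/
def EMap.dm (i : I') (j : I) (γ : Γ) : Set (E n) := {y | γ • e.F (C'.ψ i y) ∈ Set.range (C.ψ j)}

variable {e}

theorem rho_spec {i : I'} {j : I} {γ : Γ} {y : E n} (h : y ∈ e.dm i j γ) :
    C.ψ j (e.rho i j γ y) = γ • e.F (C'.ψ i y) := ψ_co C h

variable (e) in
theorem isOpen_dm (i : I') (j : I) (γ : Γ) : IsOpen (e.dm i j γ) :=
  (C.emb j).isOpen_range.preimage ((C.cont γ).comp (e.cont.comp (C'.emb i).continuous))

theorem contDiffAt_rho {i : I'} {j : I} {γ : Γ} {y : E n} (h : y ∈ e.dm i j γ) :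
    ContDiffAt ℝ ∞ (e.rho i j γ) y :=
  (e.smooth i j γ).contDiffAt ((isOpen_dm e i j γ).mem_nhds h)

variable (e) in
theorem exists_dm (i : I') (y : E n) : ∃ (j : I) (γ : Γ), y ∈ e.dm i j γ := by
  obtain ⟨γ, j, z, _, h⟩ := C.cover (e.F (C'.ψ i y))
  exact ⟨j, γ⁻¹, z, by rw [← h, inv_smul_smul]⟩

/-- change of the chart of the target -/
theorem rho_tr {i : I'} {j j' : I} {γ γ' : Γ} {y : E n} (h : y ∈ e.dm i j γ)
    (h' : y ∈ e.dm i j' γ') : e.rho i j γ y ∈ C.dom j j' (γ' * γ⁻¹) ∧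
      C.tr j j' (γ' * γ⁻¹) (e.rho i j γ y) = e.rho i j' γ' y :=
  mem_dom C (by rw [rho_spec h, rho_spec h', mul_smul, inv_smul_smul])

theorem jac_rho {i : I'} {j j' : I} {γ γ' : Γ} {y : E n} (h : y ∈ e.dm i j γ)
    (h' : y ∈ e.dm i j' γ') : jac (e.rho i j' γ') y =
      jac (C.tr j j' (γ' * γ⁻¹)) (e.rho i j γ y) * jac (e.rho i j γ) y := by
  rw [← jac_comp (contDiffAt_rho h) (contDiffAt_tr C (rho_tr h h').1)]
  refine jac_congr ?_
  filter_upwards [(isOpen_dm e i j γ).mem_nhds h, (isOpen_dm e i j' γ').mem_nhds h'] with z hz hz'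
  exact (rho_tr hz hz').2.symm

/-- change of the chart of the source -/
theorem tr_rho {i i' : I'} {j : I} {γ δ : Γ} {y : E n} (hd : y ∈ C'.dom i i' δ)
    (h : C'.tr i i' δ y ∈ e.dm i' j γ) : y ∈ e.dm i j (γ * δ) ∧
      e.rho i' j γ (C'.tr i i' δ y) = e.rho i j (γ * δ) y := by
  have h1 : γ • e.F (C'.ψ i' (C'.tr i i' δ y)) = (γ * δ) • e.F (C'.ψ i y) := by
    rw [tr_spec C' hd, e.equi, mul_smul]
  refine ⟨?_, ?_⟩
  · show (γ * δ) • e.F (C'.ψ i y) ∈ Set.range (C.ψ j)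
    rw [← h1]; exact h
  · unfold EMap.rho
    rw [h1]

theorem jac_tr_rho {i i' : I'} {j : I} {γ δ : Γ} {y : E n} (hd : y ∈ C'.dom i i' δ)
    (h : C'.tr i i' δ y ∈ e.dm i' j γ) : jac (e.rho i j (γ * δ)) y =
      jac (e.rho i' j γ) (C'.tr i i' δ y) * jac (C'.tr i i' δ) y := by
  rw [← jac_comp (contDiffAt_tr C' hd) (contDiffAt_rho h)]
  refine jac_congr ?_
  filter_upwards [(isOpen_dom C' i i' δ).mem_nhds hd,
    ((contDiffAt_tr C' hd).continuousAt.preimage_mem_nhds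
      ((isOpen_dm e i' j γ).mem_nhds h))] with z hz hz'
  exact (tr_rho hz hz').2.symm

/-! ### functions -/

theorem rep_comp_eventually (u : X → ℝ) {i : I'} {j : I} {γ : Γ} {y : E n} (h : y ∈ e.dm i j γ)
    (γ' : Γ) : C'.rep (fun x => u (e.F x)) γ' i =ᶠ[𝓝 y]
      fun z => C.rep u (γ' * γ⁻¹) j (e.rho i j γ z) := by
  filter_upwards [(isOpen_dm e i j γ).mem_nhds h] with z hz
  show u (e.F (γ' • C'.ψ i z)) = u ((γ' * γ⁻¹) • C.ψ j (e.rho i j γ z))
  rw [rho_spec hz, e.equi, mul_smul, inv_smul_smul]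

theorem Ck_comp {k : ℕ∞} {u : X → ℝ} (hu : C.Ck k u) : C'.Ck k fun x => u (e.F x) := by
  intro γ i
  refine contDiff_iff_contDiffAt.2 fun y => ?_
  obtain ⟨j, γ', h⟩ := exists_dm e i y
  refine ContDiffAt.congr_of_eventuallyEq ?_ (rep_comp_eventually u h γ)
  exact (hu _ j).contDiffAt.comp y ((contDiffAt_rho h).of_le (mod_cast le_top))

/-! ### metrics -/

variable {G : I → E n → Matrix (Fin n) (Fin n) ℝ} {H : I' → E n → Matrix (Fin n) (Fin n) ℝ}

variable (e) in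
/-- the pull-back of the metric -/
noncomputable def EMap.pb (G : I → E n → Matrix (Fin n) (Fin n) ℝ) (i : I') (y : E n) :
    Matrix (Fin n) (Fin n) ℝ :=
  (jac (e.rho i (exists_dm e i y).choose (exists_dm e i y).choose_spec.choose) y)ᵀ *
    G (exists_dm e i y).choose
      (e.rho i (exists_dm e i y).choose (exists_dm e i y).choose_spec.choose y) *
    jac (e.rho i (exists_dm e i y).choose (exists_dm e i y).choose_spec.choose) y

theorem pb_eq (hG : MetX C G) {i : I'} {j : I} {γ : Γ} {y : E n} (h : y ∈ e.dm i j γ) :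
    e.pb G i y = (jac (e.rho i j γ) y)ᵀ * G j (e.rho i j γ y) * jac (e.rho i j γ) y := by
  have h0 := (exists_dm e i y).choose_spec.choose_spec
  unfold EMap.pb
  set j0 := (exists_dm e i y).choose
  set γ0 := (exists_dm e i y).choose_spec.choose
  rw [jac_rho h h0, Bas2.compat hG (rho_tr h h0).1, (rho_tr h h0).2, Matrix.transpose_mul]
  simp only [Matrix.mul_assoc]

theorem pb_eventually (hG : MetX C G) {i : I'} {j : I} {γ : Γ} {y : E n} (h : y ∈ e.dm i j γ) :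
    e.pb G i =ᶠ[𝓝 y]
      fun y => (jac (e.rho i j γ) y)ᵀ * G j (e.rho i j γ y) * jac (e.rho i j γ) y := by
  filter_upwards [(isOpen_dm e i j γ).mem_nhds h] with z hz
  exact pb_eq hG hz

theorem pb_smooth (hG : MetX C G) (i : I') (a b : Fin n) :
    ContDiff ℝ ∞ (fun y => e.pb G i y a b) := by
  refine contDiff_iff_contDiffAt.2 fun y => ?_
  obtain ⟨j, γ, h⟩ := exists_dm e i y
  have h1 : (fun y => e.pb G i y a b) =ᶠ[𝓝 y] fun y => ∑ d, (∑ c, jac (e.rho i j γ) y c a *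
      G j (e.rho i j γ y) c d) * jac (e.rho i j γ) y d b := by
    filter_upwards [pb_eventually hG h] with z hz
    rw [hz]
    simp only [Matrix.mul_apply, Matrix.transpose_apply]
  refine ContDiffAt.congr_of_eventuallyEq ?_ h1
  refine ContDiffAt.sum fun d _ => ContDiffAt.mul (ContDiffAt.sum fun c _ => ?_)
    (sm_jac (contDiffAt_rho h) d b)
  exact (sm_jac (contDiffAt_rho h) c a).mul
    ((hG.smooth j c d).contDiffAt.comp y (contDiffAt_rho h))

theorem pb_psd (hG : MetX C G) (i : I') (y : E n) : (e.pb G i y).PosSemidef := by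
  obtain ⟨j, γ, h⟩ := exists_dm e i y
  rw [pb_eq hG h]
  have := (hG.pos j (e.rho i j γ y)).posSemidef.conjTranspose_mul_mul_same (jac (e.rho i j γ) y)
  rwa [Matrix.conjTranspose_eq_transpose_of_trivial] at this

/-- compatibility of the pull-back with coordinate changes -/
theorem pb_compat (hG : MetX C G) {i i' : I'} {δ : Γ} {y : E n} (hd : y ∈ C'.dom i i' δ) :
    e.pb G i y = (jac (C'.tr i i' δ) y)ᵀ * e.pb G i' (C'.tr i i' δ y) * jac (C'.tr i i' δ) y := by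
  obtain ⟨j, γ, h⟩ := exists_dm e i' (C'.tr i i' δ y)
  rw [pb_eq hG (tr_rho hd h).1, pb_eq hG h, jac_tr_rho hd h, (tr_rho hd h).2,
    Matrix.transpose_mul]
  simp only [Matrix.mul_assoc]

variable (e) in
/-- the perturbed pull-back -/
noncomputable def EMap.pe (G : I → E n → Matrix (Fin n) (Fin n) ℝ)
    (H : I' → E n → Matrix (Fin n) (Fin n) ℝ) (t : ℝ) (i : I') (y : E n) :
    Matrix (Fin n) (Fin n) ℝ := e.pb G i y + t • H i y

theorem pe_met (hG : MetX C G) (hH : MetX C' H) {t : ℝ} (ht : 0 < t) :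
    MetX C' (e.pe G H t) where
  smooth i a b := (pb_smooth hG i a b).add (contDiff_const.mul (hH.smooth i a b))
  pos i y := Matrix.PosDef.posSemidef_add (pb_psd hG i y) ((hH.pos i y).smul ht)
  inv i i' δ y hd v w := by
    refine bil_eq (contDiffAt_tr C' hd) ?_ v w
    unfold EMap.pe
    rw [pb_compat hG hd, Bas2.compat hH hd]
    simp only [Matrix.mul_add, Matrix.add_mul, Matrix.mul_smul, Matrix.smul_mul]

theorem gsX_pe_le (hG : MetX C G) (hH : MetX C' H) {t : ℝ} (ht : 0 < t) {u : X → ℝ}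
    (hu : C.Ck 1 u) (x : X') :
    gsX C' (e.pe G H t) (fun x => u (e.F x)) x ≤ gsX C G u (e.F x) := by
  obtain ⟨γ', i, y, -, rfl⟩ := Vale.Agent.P223.X.exists_chart C' x
  obtain ⟨j, γ, h⟩ := exists_dm e i y
  have h1 : e.F (γ' • C'.ψ i y) = (γ' * γ⁻¹) • C.ψ j (e.rho i j γ y) := by
    rw [rho_spec h, e.equi, mul_smul, inv_smul_smul]
  rw [gsX_eq (pe_met hG hH ht), h1, gsX_eq hG, Bas2.gradSq_congr (rep_comp_eventually u h γ')]
  refine gradSq_comp_le (contDiffAt_rho h) ((pe_met hG hH ht).pos i y) (hG.pos j _) ?_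
    ((hu _ j).differentiable one_ne_zero _)
  rw [← pb_eq hG h]
  have : e.pe G H t i y - e.pb G i y = t • H i y := by
    unfold EMap.pe; abel
  rw [this]
  exact (hH.pos i y).posSemidef.smul ht.le

end

end Vale.Agent.P223.R2.H395
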