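import Vale.Agent.P223.R2.H84.Spec
import Vale.Agent.P223.X.Basic

/-! Block B4a (second pen): the pulled back partition of unity. -/

namespace Vale.Agent.P223.R2.H395

open scoped ContDiff Topology
open MeasureTheory Vale.Agent.P223.H Vale.Agent.P223.X Vale.Agent.P223.R2.H84

theorem pull : SpecPull := by
  intro n M N X W Γ I I' _ _ _ _ _ _ _ _ _ _ _ C C' F hF P
  refine ⟨⟨fun _ w => P.φ () (F w), fun _ γ i => ?_, fun _ => ?_, fun w => ?_⟩, fun _ => rfl⟩
  · refine contDiff_iff_contDiffAt.2 fun y => ?_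
    obtain ⟨j, γ₀, Φ, h1, h2⟩ := hF.loc i y
    have h3 : C'.rep (fun w => P.φ () (F w)) γ i =ᶠ[𝓝 y]
        fun y' => C.rep (P.φ ()) (γ * γ₀) j (Φ y') := by
      filter_upwards [h2] with y' hy'
      show P.φ () (F (γ • C'.ψ i y')) = P.φ () ((γ * γ₀) • C.ψ j (Φ y'))
      rw [hF.equiv, hy', mul_smul]
    refine ContDiffAt.congr_of_eventuallyEq ?_ h3
    exact (P.smooth () _ j).contDiffAt.comp y (h1.of_le (by simp))
  · refine IsCompact.of_isClosed_subset (hF.prop _ (P.supp ())) (isClosed_tsupport _) ?_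
    exact closure_minimal (fun w hw => subset_tsupport _ hw)
      ((isClosed_tsupport _).preimage F.continuous)
  · simpa only [hF.equiv] using P.sum (F w)

end Vale.Agent.P223.R2.H395
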