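import Vale.Agent.P223.R2.H84.SpecAm
import Vale.Agent.P223.X.FinX
import Vale.Agent.P223.X.StokesX
import Vale.Agent.P223.X.Basic
import Vale.Agent.P223.X.Int
import Vale.Agent.P223.X.NormX

/-! Row R2: push forward of partitions of unity. -/

namespace Vale.Agent.P223.R2.H395

open scoped ContDiff Topology
open MeasureTheory Vale.Agent.P223.H Vale.Agent.P223.X Vale.Agent.P223.R2.H84
  Vale.Agent.P223.X.DensX Filter Function

section comb
variable {n : ℕ} {I G : Type}

theorem sum_cons [DecidableEq G] (A : Fin (n + 1) → Finset G) (f : (Fin (n + 1) → G) → ℝ) :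
    ∑ a ∈ A 0, ∑ s ∈ Fintype.piFinset (fun k : Fin n => A k.succ), f (Fin.cons a s) =
      ∑ t ∈ Fintype.piFinset A, f t := by
  rw [← Finset.sum_product']
  refine Finset.sum_bij' (fun q _ => Fin.cons q.1 q.2) (fun t _ => (t 0, Fin.tail t)) ?_ ?_ ?_ ?_ ?_
  · rintro ⟨a, s⟩ h
    rw [Finset.mem_product, Fintype.mem_piFinset] at h
    rw [Fintype.mem_piFinset]
    refine Fin.cases ?_ ?_
    · simpa using h.1
    · intro k; simpa using h.2 k
  · intro t h
    rw [Fintype.mem_piFinset] at h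
    rw [Finset.mem_product, Fintype.mem_piFinset]
    exact ⟨h 0, fun k => h k.succ⟩
  · rintro ⟨a, s⟩ _
    simp
  · intro t _
    simp
  · rintro ⟨a, s⟩ _
    rfl

variable [Group G]

/-- reindexing -/
def eqv : {l : Fin (n + 1) → G × I // l ∈ {l : Fin (n + 1) → G × I | (l 0).1 = 1}} × G ≃
    (Fin (n + 1) → I) × (Fin (n + 1) → G) where
  toFun q := (fun k => (q.1.1 k).2, fun k => ((q.1.1 k).1)⁻¹ * q.2)
  invFun r := (⟨fun k => (r.2 0 * (r.2 k)⁻¹, r.1 k), mul_inv_cancel _⟩, r.2 0)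
  left_inv := by
    rintro ⟨⟨l, hl⟩, g⟩
    have hl' : (l 0).1 = 1 := hl
    refine Prod.ext (Subtype.ext (funext fun k => Prod.ext ?_ rfl)) ?_
    · show (l 0).1⁻¹ * g * ((l k).1⁻¹ * g)⁻¹ = (l k).1
      rw [hl']; group
    · show (l 0).1⁻¹ * g = g
      rw [hl']; group
  right_inv := by
    rintro ⟨j, t⟩
    refine Prod.ext rfl (funext fun k => ?_)
    show (t 0 * (t k)⁻¹)⁻¹ * t 0 = t k
    group

theorem comb [Fintype I] (Φ : (Fin (n + 1) → I) → (Fin (n + 1) → G) → ℝ)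
    (hΦ : (support fun r : (Fin (n + 1) → I) × (Fin (n + 1) → G) => Φ r.1 r.2).Finite) :
    ∑ᶠ l ∈ {l : Fin (n + 1) → G × I | (l 0).1 = 1},
      ∑ᶠ g : G, Φ (fun k => (l k).2) (fun k => (l k).1⁻¹ * g) = ∑ j, ∑ᶠ t, Φ j t := by
  classical
  rw [← finsum_set_coe_eq_finsum_mem]
  have h1 : (support fun q => Φ (eqv (n := n) (I := I) (G := G) q).1 (eqv q).2).Finite :=
    hΦ.preimage (f := eqv (n := n) (I := I) (G := G)) (eqv.injective.injOn)
  have h2 := finsum_curry (fun q => Φ (eqv (n := n) (I := I) (G := G) q).1 (eqv q).2) h1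
  have h3 := finsum_comp_equiv (eqv (n := n) (I := I) (G := G)) (f := fun r => Φ r.1 r.2)
  have h4 := finsum_curry (fun r : (Fin (n + 1) → I) × (Fin (n + 1) → G) => Φ r.1 r.2) hΦ
  refine h2.symm.trans (h3.trans (h4.trans ?_))
  rw [finsum_eq_sum_of_fintype]

end comb

section loc
variable {n : ℕ} {I G : Type}

theorem jdet_expand [DecidableEq G] (A : Fin n → Finset G) (f : Fin n → G → E n → ℝ) (y : E n)
    (hf : ∀ k, ∀ t ∈ A k, DifferentiableAt ℝ (f k t) y) :
    jdet (fun k z => ∑ t ∈ A k, f k t z) y =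
      ∑ r ∈ Fintype.piFinset A, jdet (fun k => f k (r k)) y := by
  unfold jdet
  have h1 : (Matrix.of fun i j => H.pd j (fun z => ∑ t ∈ A i, f i t z) y) =
      fun i => ∑ t ∈ A i, fun j => H.pd j (f i t) y := by
    ext i j
    rw [Matrix.of_apply, Bridge.pd_sum (hf i), Finset.sum_apply]
  rw [h1]
  exact (Matrix.detRowAlternating (n := Fin n) (R := ℝ)).toMultilinearMap.map_sum_finset
    (fun i t => fun j => H.pd j (f i t) y) A

/-- the local weights -/
noncomputable def Bw (χ : I → E n → ℝ) (u : I → I → G → E n → ℝ) (i : I) (j : Fin (n + 1) → I)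
    (t : Fin (n + 1) → G) : ℝ :=
  ∫ y, χ i y * (u (j 0) i (t 0) y * jdet (fun k : Fin n => u (j k.succ) i (t k.succ)) y)

end loc

section cov
variable {n : ℕ} {M X G I : Type} [TopologicalSpace M] [TopologicalSpace X] [Group G]
  [MulAction G X] [Fintype I] [T2Space X] {C : Cov n M X G I} {χ : I → E n → ℝ}

/-- the functions in charts -/
noncomputable def uC (C : Cov n M X G I) (χ : I → E n → ℝ) (c : I → G) (j i : I) (t : G)
    (y : E n) : ℝ := C.ex j (χ j) (c j • t • C.ψ i y)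

theorem uC_smooth (hχ : Part C χ) (c : I → G) (j i : I) (t : G) :
    ContDiff ℝ ∞ (uC C χ c j i t) :=
  Ck_smul C (Ck_ex C (hχ.smooth j) (hcs_χ hχ j)) (c j) t i

/-- the partition of unity -/
noncomputable def PP (hχ : Part C χ) (c : I → G) : PUX C I where
  φ j x := C.ex j (χ j) (c j • x)
  smooth j := fun γ i => (Ck_smul C (Ck_ex C (hχ.smooth j) (hcs_χ hχ j)) (c j) γ i).of_le (by simp)
  supp j := by
    have h1 : HasCompactSupport (C.ex j (χ j)) := by
      refine HasCompactSupport.of_support_subset_isCompact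
        ((isCompact_closedBall (0 : E n) 2).image (C.emb j).continuous) fun x hx => ?_
      by_contra hcon
      refine hx ?_
      unfold Cov.ex
      split_ifs with h
      · obtain ⟨z, rfl⟩ := h
        rw [co_ψ]
        refine hχ.supp j z ?_
        by_contra hlt
        exact hcon ⟨z, by rw [mem_closedBall_zero_iff]; exact (not_le.1 hlt).le, rfl⟩
      · rfl
    exact h1.comp_homeomorph (Int.homeo C (c j))
  sum x := by
    rw [← hχ.sum x]
    refine Finset.sum_congr rfl fun j _ => ?_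
    refine Eq.trans ?_ (finsum_comp_equiv ((Equiv.inv G).trans (Equiv.mulLeft (c j)))
      (f := fun γ => C.ex j (χ j) (γ • x)))
    refine finsum_congr fun γ => ?_
    show C.ex j (χ j) (c j • γ⁻¹ • x) = C.ex j (χ j) ((c j * γ⁻¹) • x)
    rw [mul_smul]

theorem wt_PP (hχ : Part C χ) (c : I → G) (l : Fin (n + 1) → G × I) :
    (PP hχ c).wt χ l = ∑ i, ∑ᶠ g : G, Bw χ (uC C χ c) i (fun k => (l k).2)
      (fun k => (l k).1⁻¹ * g) := by
  unfold PUX.wt wtX Bw
  refine Finset.sum_congr rfl fun i _ => finsum_congr fun g => ?_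
  have h1 : ∀ k, C.rep ((PP hχ c).fn (l k)) g i = uC C χ c (l k).2 i ((l k).1⁻¹ * g) := by
    intro k
    funext y
    show C.ex (l k).2 (χ (l k).2) (c (l k).2 • (l k).1⁻¹ • g • C.ψ i y) =
      C.ex (l k).2 (χ (l k).2) (c (l k).2 • ((l k).1⁻¹ * g) • C.ψ i y)
    rw [mul_smul]
  simp only [h1]

omit [T2Space X] in
/-- the finite set of group elements -/
theorem exists_T (C : Cov n M X G I) (c : I → G) : ∃ T : Finset G, ∀ t ∉ T, ∀ i j (y z : E n),
    ‖y‖ ≤ 3 → ‖z‖ ≤ 3 → c j • t • C.ψ i y ≠ C.ψ j z := by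
  classical
  have h : (⋃ i, ⋃ j, {t : G | c j * t ∈ {γ : G | ∃ y y' : E n, ‖y‖ ≤ 3 ∧ ‖y'‖ ≤ 3 ∧
      γ • C.ψ i y = C.ψ j y'}}).Finite := by
    refine Set.finite_iUnion fun i => Set.finite_iUnion fun j => ?_
    exact (C.proper i j 3).preimage (mul_right_injective (c j)).injOn
  refine ⟨h.toFinset, fun t ht i j y z hy hz he => ht ?_⟩
  rw [Set.Finite.mem_toFinset, Set.mem_iUnion]
  refine ⟨i, Set.mem_iUnion.2 ⟨j, y, z, hy, hz, ?_⟩⟩
  rw [mul_smul, he]

omit [T2Space X] in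
theorem uC_zero (hχ : Part C χ) {c : I → G} {T : Finset G} (hT : ∀ t ∉ T, ∀ i j (y z : E n),
    ‖y‖ ≤ 3 → ‖z‖ ≤ 3 → c j • t • C.ψ i y ≠ C.ψ j z) {t : G} (ht : t ∉ T) (j i : I) {y : E n}
    (hy : ‖y‖ ≤ 3) : uC C χ c j i t y = 0 := by
  unfold uC Cov.ex
  split_ifs with h
  · obtain ⟨z, hz⟩ := h
    rw [← hz, co_ψ]
    refine hχ.supp j z ?_
    by_contra hlt
    exact hT t ht i j y z hy (by linarith [not_le.1 hlt]) hz.symm
  · rfl

omit [T2Space X] in
theorem Bw_zero (hχ : Part C χ) {c : I → G} {T : Finset G} (hT : ∀ t ∉ T, ∀ i j (y z : E n),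
    ‖y‖ ≤ 3 → ‖z‖ ≤ 3 → c j • t • C.ψ i y ≠ C.ψ j z) (i : I) (j : Fin (n + 1) → I)
    {t : Fin (n + 1) → G} {k : Fin (n + 1)} (ht : t k ∉ T) : Bw χ (uC C χ c) i j t = 0 := by
  unfold Bw
  refine integral_eq_zero_of_ae (Eventually.of_forall fun y => ?_)
  show χ i y * _ = 0
  rcases le_or_gt 2 ‖y‖ with h | h
  · rw [hχ.supp i y h, zero_mul]
  revert ht
  refine Fin.cases ?_ ?_ k
  · intro ht
    rw [uC_zero hχ hT ht _ _ (by linarith), zero_mul, mul_zero]
  · intro k ht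
    have h1 : jdet (fun k : Fin n => uC C χ c (j k.succ) i (t k.succ)) y = 0 := by
      unfold jdet
      refine Matrix.det_eq_zero_of_row_eq_zero k fun a => ?_
      rw [Matrix.of_apply]
      have h2 : uC C χ c (j k.succ) i (t k.succ) =ᶠ[𝓝 y] fun _ => 0 := by
        filter_upwards [(isOpen_lt continuous_norm continuous_const).mem_nhds
          (show y ∈ {z : E n | ‖z‖ < 3} from by show ‖y‖ < 3; linarith)] with z hz
        exact uC_zero hχ hT ht _ _ (le_of_lt hz)
      unfold H.pd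
      rw [h2.fderiv_eq]
      simp
    rw [h1, mul_zero, mul_zero]

theorem Bw_fin (hχ : Part C χ) (c : I → G) (i : I) (a : (Fin (n + 1) → G) → ℝ) :
    (support fun r : (Fin (n + 1) → I) × (Fin (n + 1) → G) =>
      Bw χ (uC C χ c) i r.1 r.2 * a r.2).Finite := by
  classical
  obtain ⟨T, hT⟩ := exists_T C c
  refine ((Set.finite_univ (α := Fin (n + 1) → I)).prod
    (Fintype.piFinset fun _ : Fin (n + 1) => T).finite_toSet).subset ?_
  rintro ⟨j, t⟩ h
  refine ⟨Set.mem_univ _, ?_⟩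
  rw [Finset.mem_coe, Fintype.mem_piFinset]
  intro k
  by_contra hk
  exact h (by
    show Bw χ (uC C χ c) i j t * a t = 0
    rw [Bw_zero hχ hT i j hk, zero_mul])

/-- the sum over all labels -/
theorem sum_wt (hχ : Part C χ) (c : I → G) (F : (Fin (n + 1) → G) → ℝ)
    (hF : ∀ (g : G) t, F (fun k => t k * g) = F t) :
    ∑ᶠ l ∈ {l : Fin (n + 1) → G × I | (l 0).1 = 1}, (PP hχ c).wt χ l *
      F (fun k => (l k).1⁻¹) =
      ∑ i, ∑ j, ∑ᶠ t, Bw χ (uC C χ c) i j t * F t := by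
  classical
  have h1 : ∀ l : Fin (n + 1) → G × I, (PP hχ c).wt χ l * F (fun k => (l k).1⁻¹) =
      ∑ i, ∑ᶠ g : G, Bw χ (uC C χ c) i (fun k => (l k).2) (fun k => (l k).1⁻¹ * g) *
        F (fun k => (l k).1⁻¹ * g) := by
    intro l
    rw [wt_PP, Finset.sum_mul]
    refine Finset.sum_congr rfl fun i _ => ?_
    rw [finsum_mul]
    exact finsum_congr fun g => by rw [hF]
  simp only [h1]
  rw [← finsum_set_coe_eq_finsum_mem, finsum_sum_comm]
  · refine Finset.sum_congr rfl fun i _ => ?_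
    rw [← comb (fun j t => Bw χ (uC C χ c) i j t * F t) (Bw_fin hχ c i F),
      ← finsum_set_coe_eq_finsum_mem]
  · intro i _
    have h2 : (support fun q => (fun r : (Fin (n + 1) → I) × (Fin (n + 1) → G) =>
        Bw χ (uC C χ c) i r.1 r.2 * F r.2) (eqv (n := n) (I := I) (G := G) q)).Finite :=
      (Bw_fin hχ c i F).preimage (f := eqv (n := n) (I := I) (G := G)) (eqv.injective.injOn)
    refine (h2.image Prod.fst).subset ?_
    intro l hl
    have h3 : ∃ g : G, Bw χ (uC C χ c) i (fun k => (l.1 k).2) (fun k => (l.1 k).1⁻¹ * g) *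
        F (fun k => (l.1 k).1⁻¹ * g) ≠ 0 := by
      by_contra hcon
      push Not at hcon
      exact hl (by
        show ∑ᶠ g : G, _ = _
        simp only [hcon, finsum_zero])
    obtain ⟨g, hg⟩ := h3
    exact ⟨(l, g), hg, rfl⟩

end cov

section push
variable {n : ℕ} {M X W G Γ I : Type} [TopologicalSpace M] [TopologicalSpace X]
  [TopologicalSpace W] [Group G] [Group Γ] [MulAction G X] [MulAction Γ W]
  {C : Cov n M X G I} {C' : Cov n M W Γ I} {ρ : G →* Γ} {p : C(X, W)}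

theorem eq_of_smul (C : Cov n M X G I) {a b : G} {x : X} (h : a • x = b • x) : a = b := by
  have h1 : (b⁻¹ * a) • x = x := by rw [mul_smul, h, inv_smul_smul]
  exact (inv_mul_eq_one.1 (C.free _ _ h1)).symm

theorem π_smul (C : Cov n M X G I) (g : G) (x : X) : C.π (g • x) = C.π x :=
  ((C.orb x (g • x)).2 ⟨g, rfl⟩).symm

theorem exists_c [T2Space W] (hπ : ∀ x, C'.π (p x) = C.π x)
    (hψ : ∀ i y, C'.π (C'.ψ i y) = C.π (C.ψ i y)) :
    ∃ c : I → Γ, ∀ i y, c i • p (C.ψ i y) = C'.ψ i y := by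
  have h : ∀ i, ∃ γ : Γ, ∀ y, γ • p (C.ψ i y) = C'.ψ i y := by
    intro i
    obtain ⟨γ, hγ⟩ := (C'.orb (p (C.ψ i 0)) (C'.ψ i 0)).1 (by rw [hπ, hψ])
    refine ⟨γ, ?_⟩
    have hc1 : Continuous fun y => γ • p (C.ψ i y) :=
      (C'.cont γ).comp (p.continuous.comp (C.emb i).continuous)
    have hclopen : IsClopen {y : E n | γ • p (C.ψ i y) = C'.ψ i y} := by
      refine ⟨isClosed_eq hc1 (C'.emb i).continuous, isOpen_iff_mem_nhds.2 fun y hy => ?_⟩
      have h1 : ∀ᶠ z in 𝓝 y, γ • p (C.ψ i z) ∈ Set.range (C'.ψ i) :=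
        hc1.continuousAt.eventually_mem ((C'.emb i).isOpen_range.mem_nhds ⟨y, hy.symm⟩)
      filter_upwards [h1] with z hz
      obtain ⟨z', hz'⟩ := hz
      have h2 : C'.π (C'.ψ i z') = C'.π (C'.ψ i z) := by
        rw [hz', π_smul, hπ, hψ]
      have h3 := NormX.inj_pi C' i h2
      show γ • p (C.ψ i z) = C'.ψ i z
      rw [← hz', h3]
    have huniv := hclopen.eq_univ ⟨0, hγ⟩
    intro y
    have : y ∈ {y : E n | γ • p (C.ψ i y) = C'.ψ i y} := huniv ▸ Set.mem_univ y
    exact this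
  choose c hc using h
  exact ⟨c, hc⟩

variable [Fintype I] {χ : I → E n → ℝ}

theorem star (hχ : Part C χ) (hp : ∀ (g : G) x, p (g • x) = ρ g • p x)
    (hπ : ∀ x, C'.π (p x) = C.π x) {c : I → Γ} (hc : ∀ i y, c i • p (C.ψ i y) = C'.ψ i y)
    [DecidableEq Γ] {T : Finset G} (hT : ∀ t ∉ T, ∀ i j (y z : E n),
    ‖y‖ ≤ 3 → ‖z‖ ≤ 3 → (1 : G) • t • C.ψ i y ≠ C.ψ j z) (j i : I) (τ : Γ) {y : E n}
    (hy : ‖y‖ ≤ 3) : uC C' χ c j i τ y =
      ∑ t ∈ T with ρ t = τ * c i, uC C χ (fun _ => 1) j i t y := by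
  classical
  by_cases h : ∃ t : G, ρ t = τ * c i ∧ t • C.ψ i y ∈ Set.range (C.ψ j)
  · obtain ⟨t, ht, z, hz⟩ := h
    have e1 : c j • τ • C'.ψ i y = C'.ψ j z := by
      rw [← hc, ← hc, hz, hp, ht, mul_smul]
    have e2 : uC C' χ c j i τ y = χ j z := by
      unfold uC
      rw [e1, ex_ψ]
    have e3 : uC C χ (fun _ => 1) j i t y = χ j z := by
      unfold uC
      rw [one_smul, ← hz, ex_ψ]
    rw [e2, ← e3]
    refine (Finset.sum_eq_single (f := fun t => uC C χ (fun _ => 1) j i t y) t ?_ ?_).symm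
    · intro s _ hst
      unfold uC Cov.ex
      split_ifs with h1
      · obtain ⟨z2, hz2⟩ := h1
        rw [one_smul] at hz2
        exfalso
        have h2 : C.π (C.ψ j z2) = C.π (C.ψ j z) := by
          rw [hz2, hz, π_smul, π_smul]
        have h3 := NormX.inj_pi C j h2
        rw [h3, hz] at hz2
        exact hst (eq_of_smul C hz2).symm
      · rfl
    · intro h1
      rw [Finset.mem_filter, not_and] at h1
      have h2 : t ∉ T := fun h3 => h1 h3 ht
      exact uC_zero hχ hT h2 j i hy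
  · push Not at h
    have e1 : uC C' χ c j i τ y = 0 := by
      unfold uC Cov.ex
      split_ifs with h1
      · obtain ⟨z, hz⟩ := h1
        exfalso
        rw [← hc, ← hc] at hz
        have h2 : p (C.ψ j z) = (τ * c i) • p (C.ψ i y) := by
          have := MulAction.injective (c j) hz
          rw [this, mul_smul]
        have h3 : C.π (C.ψ i y) = C.π (C.ψ j z) := by
          rw [← hπ, ← hπ, h2, π_smul]
        obtain ⟨s, hs⟩ := (C.orb _ _).1 h3
        have h4 : ρ s • p (C.ψ i y) = (τ * c i) • p (C.ψ i y) := by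
          rw [← hp, hs, h2]
        exact h s (eq_of_smul C' h4) ⟨z, hs.symm⟩
      · rfl
    rw [e1]
    refine (Finset.sum_eq_zero fun s hs => ?_).symm
    rw [Finset.mem_filter] at hs
    unfold uC Cov.ex
    rw [if_neg]
    rw [one_smul]
    exact h s hs.2

theorem Bw_push [T2Space X] (hχ : Part C χ) (hp : ∀ (g : G) x, p (g • x) = ρ g • p x)
    (hπ : ∀ x, C'.π (p x) = C.π x) {c : I → Γ} (hc : ∀ i y, c i • p (C.ψ i y) = C'.ψ i y)
    [DecidableEq Γ] [DecidableEq G] {T : Finset G} (hT : ∀ t ∉ T, ∀ i j (y z : E n),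
    ‖y‖ ≤ 3 → ‖z‖ ≤ 3 → (1 : G) • t • C.ψ i y ≠ C.ψ j z) (i : I) (j : Fin (n + 1) → I)
    (τ : Fin (n + 1) → Γ) : Bw χ (uC C' χ c) i j τ =
      ∑ t ∈ Fintype.piFinset (fun k => T.filter fun t => ρ t = τ k * c i),
        Bw χ (uC C χ (fun _ => 1)) i j t := by
  unfold Bw
  rw [← integral_finsetSum]
  · refine integral_congr_ae (Eventually.of_forall fun y => ?_)
    show χ i y * _ = _
    rcases le_or_gt 2 ‖y‖ with h | h
    · simp only [hχ.supp i y h, zero_mul, Finset.sum_const_zero]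
    · have h1 : ∀ k : Fin n, uC C' χ c (j k.succ) i (τ k.succ) =ᶠ[𝓝 y] fun z =>
          ∑ t ∈ T with ρ t = τ k.succ * c i, uC C χ (fun _ => 1) (j k.succ) i t z := by
        intro k
        filter_upwards [(isOpen_lt continuous_norm continuous_const).mem_nhds
          (show y ∈ {z : E n | ‖z‖ < 3} from by show ‖y‖ < 3; linarith)] with z hz
        exact star hχ hp hπ hc hT _ _ _ (le_of_lt hz)
      beta_reduce
      rw [star hχ hp hπ hc hT _ _ _ (by linarith), jdet_congr h1,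
        jdet_expand (fun k : Fin n => T.filter fun t => ρ t = τ k.succ * c i)
          (fun k t => uC C χ (fun _ => 1) (j k.succ) i t) y
          (fun k t _ => (uC_smooth hχ _ _ _ _).differentiable (by simp) y),
        ← sum_cons (fun k => T.filter fun t => ρ t = τ k * c i), Finset.sum_mul, Finset.mul_sum]
      refine Finset.sum_congr rfl fun a _ => ?_
      rw [Finset.mul_sum, Finset.mul_sum]
      refine Finset.sum_congr rfl fun s _ => ?_
      rfl
  · intro t _
    refine Continuous.integrable_of_hasCompactSupport ?_ (hcs_χ hχ i).mul_right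
    refine (hχ.smooth i).continuous.mul ((uC_smooth hχ _ _ _ _).continuous.mul ?_)
    exact H.B6b.continuous_jdet fun k => (uC_smooth hχ _ _ _ _).of_le (by simp)

theorem fiber [T2Space X] (hχ : Part C χ) (hp : ∀ (g : G) x, p (g • x) = ρ g • p x)
    (hπ : ∀ x, C'.π (p x) = C.π x) {c : I → Γ} (hc : ∀ i y, c i • p (C.ψ i y) = C'.ψ i y)
    (F' : (Fin (n + 1) → Γ) → ℝ) (i : I) (j : Fin (n + 1) → I) :
    ∑ᶠ τ, Bw χ (uC C' χ c) i j τ * F' (fun k => τ 0 * (τ k)⁻¹) =
      ∑ᶠ t, Bw χ (uC C χ (fun _ => 1)) i j t * F' (fun k => ρ (t 0 * (t k)⁻¹)) := by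
  classical
  obtain ⟨T, hT⟩ := exists_T C (fun _ => 1)
  set S := Fintype.piFinset fun _ : Fin (n + 1) => T with hS
  rw [finsum_eq_sum_of_support_subset (s := S) (fun t => _)]
  · rw [← finsum_sum_filter (fun t k => ρ (t k) * (c i)⁻¹) S]
    refine finsum_congr fun τ => ?_
    rw [Bw_push hχ hp hπ hc hT, Finset.sum_mul]
    have h1 : (Fintype.piFinset fun k => T.filter fun t => ρ t = τ k * c i) =
        S.filter fun t => (fun k => ρ (t k) * (c i)⁻¹) = τ := by
      ext t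
      rw [Finset.mem_filter, Fintype.mem_piFinset, hS, Fintype.mem_piFinset]
      constructor
      · intro h
        exact ⟨fun k => (Finset.mem_filter.1 (h k)).1, funext fun k => by
          rw [(Finset.mem_filter.1 (h k)).2, mul_inv_cancel_right]⟩
      · rintro ⟨h1, h2⟩ k
        refine Finset.mem_filter.2 ⟨h1 k, ?_⟩
        rw [← h2, inv_mul_cancel_right]
    rw [h1]
    refine Finset.sum_congr rfl fun t ht => ?_
    obtain ⟨-, rfl⟩ := Finset.mem_filter.1 ht
    congr 2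
    funext k
    rw [map_mul, map_inv]
    group
  · intro t ht
    rw [Finset.mem_coe, Fintype.mem_piFinset]
    intro k
    by_contra hk
    refine ht ?_
    show _ * _ = (0 : ℝ)
    rw [Bw_zero hχ hT i j hk, zero_mul]

end push

theorem push : SpecPush := by
  intro n M X W G Γ I _ _ _ _ _ _ _ _ _ _ C C' ρ p hρ hp hπ hψ hn χ hχ hχ'
  obtain ⟨c, hc⟩ := exists_c (C := C) (C' := C') (p := p) hπ hψ
  refine ⟨I, inferInstance, PP hχ (fun _ => 1), PP hχ' c, fun F' => ?_⟩
  have h1 := sum_wt hχ (fun _ => 1) (fun t => F' (fun k => ρ (t 0 * (t k)⁻¹))) (fun g t => by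
    show F' (fun k => ρ (t 0 * g * (t k * g)⁻¹)) = _
    congr 1
    funext k
    congr 1
    group)
  have h2 := sum_wt hχ' c (fun t => F' (fun k => t 0 * (t k)⁻¹)) (fun g t => by
    show F' (fun k => t 0 * g * (t k * g)⁻¹) = _
    congr 1
    funext k
    group)
  have e1 : ∑ᶠ l ∈ {l : Fin (n + 1) → G × I | (l 0).1 = 1},
      (PP hχ (fun _ => 1)).wt χ l * F' (fun k => ρ (l k).1) =
      ∑ᶠ l ∈ {l : Fin (n + 1) → G × I | (l 0).1 = 1},
        (PP hχ (fun _ => 1)).wt χ l * F' (fun k => ρ ((l 0).1⁻¹ * ((l k).1⁻¹)⁻¹)) := by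
    refine finsum_mem_congr rfl fun l hl => ?_
    have hl' : (l 0).1 = 1 := hl
    simp only [hl', inv_one, one_mul, inv_inv]
  have e2 : ∑ᶠ l ∈ {l : Fin (n + 1) → Γ × I | (l 0).1 = 1},
      (PP hχ' c).wt χ l * F' (fun k => (l k).1) =
      ∑ᶠ l ∈ {l : Fin (n + 1) → Γ × I | (l 0).1 = 1},
        (PP hχ' c).wt χ l * F' (fun k => (l 0).1⁻¹ * ((l k).1⁻¹)⁻¹) := by
    refine finsum_mem_congr rfl fun l hl => ?_
    have hl' : (l 0).1 = 1 := hl
    simp only [hl', inv_one, one_mul, inv_inv]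
  rw [e1, e2]
  refine h1.trans (Eq.trans ?_ h2.symm)
  exact Finset.sum_congr rfl fun i _ => Finset.sum_congr rfl fun j _ =>
    (fiber hχ hp hπ hc F' i j).symm

end Vale.Agent.P223.R2.H395
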