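import Vale.Agent.P223.R2.H84.Spec
import Vale.Agent.P223.R2.H395.Core
import Vale.Agent.P223.X.Form
import Vale.Agent.P223.X.FundE
import Vale.Agent.P223.X.FundRep
import Vale.Agent.P223.X.FundLoc
import Vale.Agent.P223.X.FundCase
import Vale.Agent.P223.X.FundN
import Vale.Agent.P223.X.FundAlt
import Vale.Agent.P223.X.FinX
import Vale.Agent.P223.MT.Final

/-! Block B5: the simplicial volume is bounded by the weights of every partition of unity. -/

namespace Vale.Agent.P223.R2.H395

open Vale.Agent.P223.X

theorem svWt : Vale.Agent.P223.R2.H84.SpecSvWt := by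
  intro n M X Γ I _ _ _ _ _ _ _ _ C χ hn hχ hinf P
  exact svX_le_wt Form.main Form.mainA
    (FundE.main Fund.Rep.main (Fund.Loc.main Fund.Rep.wts (Fund.Case.main FundN.main)
      Fund.Rep.theta Fund.Alt.main)) MT.mt MT.dual FinX.main C hn hinf hχ P

end Vale.Agent.P223.R2.H395
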